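import Vale.Agent.P043.Basic

namespace Vale.Agent.Results.P043.DimensionMonotone

open Vale.Agent.P043

theorem ptc_of_prod {G K : Type*} [AddCommGroup G] [AddCommGroup K] (h : PTC (K × G)) :
    PTC G := by
  classical
  intro F hF ⟨A, hA⟩
  let F' : Finset (K × G) := F.image (fun g => ((0 : K), g))
  have hF'mem : ∀ x : K × G, x ∈ (F' : Set (K × G)) ↔ x.1 = 0 ∧ x.2 ∈ F := by
    intro x
    simp only [F', Finset.coe_image, Set.mem_image, Finset.mem_coe]
    constructor
    · rintro ⟨g, hg, rfl⟩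
      exact ⟨rfl, hg⟩
    · rintro ⟨h0, hx⟩
      exact ⟨x.2, hx, by ext <;> simp [h0]⟩
  have hF'ne : F'.Nonempty := hF.image _
  have hT : Tiles {x : K × G | x.2 ∈ A} (F' : Set (K × G)) := by
    apply tiles_of
    · intro g
      obtain ⟨a, ha, f, hf, e⟩ := hA.exists_rep g.2
      exact ⟨(g.1, a), ha, (0, f), (hF'mem _).2 ⟨rfl, hf⟩, by ext <;> simp [e]⟩
    · intro a ha a' ha' f hf f' hf' e
      obtain ⟨hf0, hf⟩ := (hF'mem _).1 hf
      obtain ⟨hf0', hf'⟩ := (hF'mem _).1 hf'
      have e1 : a.1 + f.1 = a'.1 + f'.1 := congrArg Prod.fst e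
      have e2 : a.2 + f.2 = a'.2 + f'.2 := congrArg Prod.snd e
      obtain ⟨h1, h2⟩ := hA.unique_rep ha ha' hf hf' e2
      rw [hf0, hf0'] at e1
      constructor
      · ext
        · simpa using e1
        · exact h1
      · ext
        · rw [hf0, hf0']
        · exact h2
  obtain ⟨B, hB, H, hH, hper⟩ := h F' hF'ne ⟨_, hT⟩
  refine ⟨{b : G | ((0 : K), b) ∈ B}, ?_, ?_⟩
  · apply tiles_of
    · intro g
      obtain ⟨b, hb, f, hf, e⟩ := hB.exists_rep ((0 : K), g)
      obtain ⟨hf0, hf⟩ := (hF'mem _).1 hf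
      have e1 : b.1 + f.1 = 0 := congrArg Prod.fst e
      have e2 : b.2 + f.2 = g := congrArg Prod.snd e
      rw [hf0, add_zero] at e1
      refine ⟨b.2, ?_, f.2, hf, e2⟩
      have : ((0 : K), b.2) = b := by ext <;> simp [e1]
      simpa [this] using hb
    · intro a ha a' ha' f hf f' hf' e
      have := hB.unique_rep (a := ((0 : K), a)) (a' := ((0 : K), a')) (f := ((0 : K), f))
        (f' := ((0 : K), f')) ha ha' ((hF'mem _).2 ⟨rfl, hf⟩) ((hF'mem _).2 ⟨rfl, hf'⟩)
        (by ext <;> simp [e])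
      exact ⟨congrArg Prod.snd this.1, congrArg Prod.snd this.2⟩
  · refine periodic_of_mem_iff (H.comap (AddMonoidHom.inr K G)) ?_ ?_
    · constructor
      rw [AddSubgroup.index_comap]
      exact (AddSubgroup.instFiniteIndex_addSubgroupOf H _).index_ne_zero
    · intro x hx b hb
      have hx' : ((0 : K), x) ∈ H := hx
      have := mem_of_image_eq (hper _ hx') hb
      simpa using this

theorem ptc_of_addEquiv {G G' : Type*} [AddCommGroup G] [AddCommGroup G'] (e : G ≃+ G')
    (h : PTC G) : PTC G' := by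
  classical
  intro F hF ⟨A, hA⟩
  let F₀ : Finset G := F.image e.symm
  have hF₀mem : ∀ x : G, x ∈ (F₀ : Set G) ↔ e x ∈ F := by
    intro x
    simp only [F₀, Finset.coe_image, Set.mem_image, Finset.mem_coe]
    constructor
    · rintro ⟨g, hg, rfl⟩
      simpa using hg
    · intro hx
      exact ⟨e x, hx, by simp⟩
  have hT : Tiles {x : G | e x ∈ A} (F₀ : Set G) := by
    apply tiles_of
    · intro g
      obtain ⟨a, ha, f, hf, ee⟩ := hA.exists_rep (e g)
      refine ⟨e.symm a, by simpa using ha, e.symm f, (hF₀mem _).2 (by simpa using hf), ?_⟩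
      rw [← map_add, ee]
      simp
    · intro a ha a' ha' f hf f' hf' ee
      have := hA.unique_rep ha ha' ((hF₀mem _).1 hf) ((hF₀mem _).1 hf')
        (by rw [← map_add, ← map_add, ee])
      exact ⟨e.injective this.1, e.injective this.2⟩
  obtain ⟨B, hB, H, hH, hper⟩ := h F₀ (hF.image _) ⟨_, hT⟩
  refine ⟨{b : G' | e.symm b ∈ B}, ?_, ?_⟩
  · apply tiles_of
    · intro g
      obtain ⟨b, hb, f, hf, ee⟩ := hB.exists_rep (e.symm g)
      refine ⟨e b, by simpa using hb, e f, (hF₀mem _).1 hf, ?_⟩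
      rw [← map_add, ee]
      simp
    · intro a ha a' ha' f hf f' hf' ee
      have := hB.unique_rep ha ha' ((hF₀mem (e.symm f)).2 (by simpa using hf))
        ((hF₀mem (e.symm f')).2 (by simpa using hf')) (by rw [← map_add, ← map_add, ee])
      exact ⟨e.symm.injective this.1, e.symm.injective this.2⟩
  · refine periodic_of_mem_iff (H.comap e.symm.toAddMonoidHom) ?_ ?_
    · constructor
      rw [AddSubgroup.index_comap]
      exact (AddSubgroup.instFiniteIndex_addSubgroupOf H _).index_ne_zero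
    · intro x hx b hb
      have hx' : e.symm x ∈ H := hx
      have := mem_of_image_eq (hper _ hx') hb
      simpa using this

theorem step (d : ℕ) (h : PTC (Fin (d + 1) → ℤ)) : PTC (Fin d → ℤ) := by
  have e : (ℤ × (Fin d → ℤ)) ≃+ (Fin (d + 1) → ℤ) :=
    (Fin.consLinearEquiv ℤ (fun _ : Fin (d + 1) => ℤ)).toAddEquiv
  exact ptc_of_prod (K := ℤ) (ptc_of_addEquiv e.symm h)

/-- The set of dimensions in which the discrete periodic tiling conjecture holds is downward
closed: if it holds in `ℤ^e` and `d ≤ e` then it holds in `ℤ^d`. -/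
theorem result (d e : ℕ) (hde : d ≤ e) (h : PTC (Fin e → ℤ)) : PTC (Fin d → ℤ) := by
  induction e, hde using Nat.le_induction with
  | base => exact h
  | succ n _ ih => exact ih (step n h)

end Vale.Agent.Results.P043.DimensionMonotone
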